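import Vale.Agent.P369.FD.MainStmts
import Vale.Agent.P369.H688.Amp

/-!
P369 (helper168), package PEN of the finite-matrix track: the truncated thermal generator does not
increase `λ^n` too much, uniformly in the cutoff.
-/

set_option linter.all false

namespace Vale.Agent.P369.FD.H168

open Matrix
open Vale.Agent.P369 (Conf up down ampn g)
open Vale.Agent.P369A (Ct)
open scoped Kronecker ComplexOrder

noncomputable section

variable {n : ℕ}

theorem low_eq (X : ℕ) (j : Fin n) : low (n := n) X j = H688.an X j := rfl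

theorem fnum_mul_low (X : ℕ) (v : ℕ → ℝ) (j : Fin n) :
    fnum X v * low (n := n) X j = low X j * fnum X (fun m => v (m - 1)) := by
  ext k l
  unfold fnum
  rw [Matrix.mul_diagonal, Matrix.diagonal_mul]
  unfold low
  by_cases h : l.1 = up k.1 j
  · rw [if_pos h]
    have h1 : ∑ i, l.1 i = ∑ i, k.1 i + 1 := by rw [h, H688.sum_up]
    rw [h1, mul_comm]; simp only [Nat.add_sub_cancel]
  · rw [if_neg h, zero_mul, mul_zero]

theorem low_mul_fnum (X : ℕ) (v : ℕ → ℝ) (j : Fin n) :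
    low (n := n) X j * fnum X v = fnum X (fun m => v (m + 1)) * low X j := by
  ext k l
  unfold fnum
  rw [Matrix.mul_diagonal, Matrix.diagonal_mul]
  unfold low
  by_cases h : l.1 = up k.1 j
  · rw [if_pos h]
    have h1 : ∑ i, l.1 i = ∑ i, k.1 i + 1 := by rw [h, H688.sum_up]
    rw [h1, mul_comm]
  · rw [if_neg h, zero_mul, mul_zero]

theorem lowH_fnum_low (X : ℕ) (v : ℕ → ℝ) (j : Fin n) :
    (low (n := n) X j)ᴴ * fnum X v * low X j =
      diagonal fun k : Ct n X => ((k.1 j * v (∑ i, k.1 i - 1) : ℝ) : ℂ) := by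
  rw [Matrix.mul_assoc, fnum_mul_low, ← Matrix.mul_assoc, low_eq, H688.anH_mul_an]
  unfold fnum
  rw [Matrix.diagonal_mul_diagonal]
  congr 1
  funext k
  push_cast
  rfl

theorem low_fnum_lowH (X : ℕ) (v : ℕ → ℝ) (j : Fin n) :
    low (n := n) X j * fnum X v * (low X j)ᴴ =
      diagonal fun k : Ct n X =>
        (((if ∑ i, k.1 i < X then (k.1 j : ℝ) + 1 else 0) * v (∑ i, k.1 i + 1) : ℝ) : ℂ) := by
  rw [low_mul_fnum, Matrix.mul_assoc, low_eq, H688.an_mul_anH]
  unfold fnum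
  rw [Matrix.diagonal_mul_diagonal]
  congr 1
  funext k
  split_ifs
  · push_cast
    ring
  · push_cast
    ring

/-- trace against a real diagonal matrix -/
theorem trace_diag_mul (X : ℕ) (w : Ct n X → ℝ) (A : Matrix (Ct n X) (Ct n X) ℂ) :
    (diagonal (fun k => ((w k : ℝ) : ℂ)) * A).trace.re = ∑ k, w k * (A k k).re := by
  rw [Matrix.trace, Complex.re_sum]
  refine Finset.sum_congr rfl fun k _ => ?_
  rw [Matrix.diag_apply, Matrix.diagonal_mul, Complex.re_ofReal_mul]

/-- the weight of one mode -/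
def wt (N : ℝ) (X : ℕ) (v : ℕ → ℝ) (j : Fin n) (k : Ct n X) : ℝ :=
  (N + 1) * (k.1 j * (v (∑ i, k.1 i - 1) - v (∑ i, k.1 i))) +
    N * ((if ∑ i, k.1 i < X then (k.1 j : ℝ) + 1 else 0) * (v (∑ i, k.1 i + 1) - v (∑ i, k.1 i)))

theorem trace_mode1 (X : ℕ) (v : ℕ → ℝ) (j : Fin n) (A : Matrix (Ct n X) (Ct n X) ℂ) :
    (fnum X v * (low X j * A * (low X j)ᴴ -
      (1 / 2 : ℂ) • ((low X j)ᴴ * low X j * A + A * ((low X j)ᴴ * low X j)))).trace =
    ((diagonal fun k : Ct n X => ((k.1 j * (v (∑ i, k.1 i - 1) - v (∑ i, k.1 i)) : ℝ) : ℂ)) *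
      A).trace := by
  have e1 : (fnum X v * (low X j * A * (low X j)ᴴ)).trace =
      ((low X j)ᴴ * fnum X v * low X j * A).trace := by
    rw [← Matrix.mul_assoc, Matrix.trace_mul_comm]
    simp only [Matrix.mul_assoc]
  have hP : (low (n := n) X j)ᴴ * low X j = diagonal fun k => ((k.1 j : ℕ) : ℂ) := by
    rw [low_eq, H688.anH_mul_an]
  have e2 : (fnum X v * (A * ((low X j)ᴴ * low X j))).trace =
      (fnum X v * ((low X j)ᴴ * low X j * A)).trace := by
    rw [hP, ← Matrix.mul_assoc, Matrix.trace_mul_comm, ← Matrix.mul_assoc, ← Matrix.mul_assoc]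
    unfold fnum
    rw [Matrix.diagonal_mul_diagonal, Matrix.diagonal_mul_diagonal]
    congr 3
    funext k
    rw [mul_comm]
  rw [Matrix.mul_sub, Matrix.trace_sub, Matrix.mul_smul, Matrix.trace_smul, Matrix.mul_add,
    Matrix.trace_add, e1, e2, lowH_fnum_low, hP, ← Matrix.mul_assoc]
  unfold fnum
  rw [Matrix.diagonal_mul_diagonal, smul_eq_mul]
  have e3 : ∀ x : ℂ, 1 / 2 * (x + x) = x := fun x => by ring
  rw [e3, ← Matrix.trace_sub, ← Matrix.sub_mul, Matrix.diagonal_sub]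
  congr 3
  funext k
  push_cast
  ring

theorem trace_mode2 (X : ℕ) (v : ℕ → ℝ) (j : Fin n) (A : Matrix (Ct n X) (Ct n X) ℂ) :
    (fnum X v * ((low X j)ᴴ * A * low X j -
      (1 / 2 : ℂ) • (low X j * (low X j)ᴴ * A + A * (low X j * (low X j)ᴴ)))).trace =
    ((diagonal fun k : Ct n X => (((if ∑ i, k.1 i < X then (k.1 j : ℝ) + 1 else 0) *
      (v (∑ i, k.1 i + 1) - v (∑ i, k.1 i)) : ℝ) : ℂ)) * A).trace := by
  have e1 : (fnum X v * ((low X j)ᴴ * A * low X j)).trace =
      (low X j * fnum X v * (low X j)ᴴ * A).trace := by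
    rw [← Matrix.mul_assoc, Matrix.trace_mul_comm]
    simp only [Matrix.mul_assoc]
  have hP : low (n := n) X j * (low X j)ᴴ =
      diagonal fun k => if ∑ i, k.1 i < X then ((k.1 j : ℕ) : ℂ) + 1 else 0 := by
    rw [low_eq, H688.an_mul_anH]
  have e2 : (fnum X v * (A * (low X j * (low X j)ᴴ))).trace =
      (fnum X v * (low X j * (low X j)ᴴ * A)).trace := by
    rw [hP, ← Matrix.mul_assoc, Matrix.trace_mul_comm, ← Matrix.mul_assoc, ← Matrix.mul_assoc]
    unfold fnum
    rw [Matrix.diagonal_mul_diagonal, Matrix.diagonal_mul_diagonal]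
    congr 3
    funext k
    rw [mul_comm]
  rw [Matrix.mul_sub, Matrix.trace_sub, Matrix.mul_smul, Matrix.trace_smul, Matrix.mul_add,
    Matrix.trace_add, e1, e2, low_fnum_lowH, hP, ← Matrix.mul_assoc]
  unfold fnum
  rw [Matrix.diagonal_mul_diagonal, smul_eq_mul]
  have e3 : ∀ x : ℂ, 1 / 2 * (x + x) = x := fun x => by ring
  rw [e3, ← Matrix.trace_sub, ← Matrix.sub_mul, Matrix.diagonal_sub]
  congr 3
  funext k
  split_ifs
  · push_cast
    ring
  · push_cast
    ring

theorem trace_fnum_lind (N : ℝ) (X : ℕ) (v : ℕ → ℝ) (A : Matrix (Ct n X) (Ct n X) ℂ) :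
    (fnum X v * lind N (low X) A).trace.re = ∑ k, (∑ j, wt N X v j k) * (A k k).re := by
  unfold lind
  rw [Matrix.mul_sum, Matrix.trace_sum, Complex.re_sum]
  have h : ∀ j : Fin n, (fnum X v * (((N + 1 : ℝ) : ℂ) • (low X j * A * (low X j)ᴴ -
      (1 / 2 : ℂ) • ((low X j)ᴴ * low X j * A + A * ((low X j)ᴴ * low X j))) +
    ((N : ℝ) : ℂ) • ((low X j)ᴴ * A * low X j -
      (1 / 2 : ℂ) • (low X j * (low X j)ᴴ * A + A * (low X j * (low X j)ᴴ))))).trace.re =
      ∑ k, wt N X v j k * (A k k).re := by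
    intro j
    rw [Matrix.mul_add, Matrix.trace_add, Matrix.mul_smul, Matrix.mul_smul, Matrix.trace_smul,
      Matrix.trace_smul, trace_mode1, trace_mode2, smul_eq_mul, smul_eq_mul, Complex.add_re,
      Complex.re_ofReal_mul, Complex.re_ofReal_mul, trace_diag_mul, trace_diag_mul,
      Finset.mul_sum, Finset.mul_sum, ← Finset.sum_add_distrib]
    refine Finset.sum_congr rfl fun k _ => ?_
    unfold wt
    ring
  rw [Finset.sum_congr rfl fun j _ => h j, Finset.sum_comm]
  refine Finset.sum_congr rfl fun k _ => ?_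
  rw [Finset.sum_mul]

theorem wt_le {N lam : ℝ} (hN : 0 < N) (h1 : 1 < lam) (X : ℕ) (j : Fin n) (k : Ct n X) :
    wt N X (fun m => lam ^ m) j k ≤
      lam ^ (∑ i, k.1 i) * (lam - 1) * (N - (k.1 j : ℝ) * ((N + 1) / lam - N)) := by
  have hl : 0 < lam := by linarith
  have e1 : (k.1 j : ℝ) * (lam ^ (∑ i, k.1 i - 1) - lam ^ (∑ i, k.1 i)) =
      (k.1 j : ℝ) * (lam ^ (∑ i, k.1 i) * (1 / lam - 1)) := by
    by_cases h : k.1 j = 0
    · rw [h]
      push_cast
      ring
    · have h2 : 1 ≤ ∑ i, k.1 i := by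
        have h3 : k.1 j ≤ ∑ i, k.1 i := Finset.single_le_sum (fun _ _ => Nat.zero_le _)
          (Finset.mem_univ j)
        omega
      obtain ⟨m, hm⟩ : ∃ m, ∑ i, k.1 i = m + 1 := ⟨∑ i, k.1 i - 1, by omega⟩
      rw [hm, Nat.add_sub_cancel, pow_succ]
      field_simp
  have e2 : (if ∑ i, k.1 i < X then (k.1 j : ℝ) + 1 else 0) *
      (lam ^ (∑ i, k.1 i + 1) - lam ^ (∑ i, k.1 i)) ≤
      ((k.1 j : ℝ) + 1) * (lam ^ (∑ i, k.1 i) * (lam - 1)) := by
    have e3 : lam ^ (∑ i, k.1 i + 1) - lam ^ (∑ i, k.1 i) = lam ^ (∑ i, k.1 i) * (lam - 1) := by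
      rw [pow_succ]
      ring
    rw [e3]
    refine mul_le_mul_of_nonneg_right ?_ (mul_nonneg (pow_nonneg hl.le _) (by linarith))
    split_ifs
    · exact le_rfl
    · positivity
  unfold wt
  rw [e1]
  have e4 := mul_le_mul_of_nonneg_left e2 hN.le
  refine (add_le_add_right e4 _).trans (le_of_eq ?_)
  field_simp
  ring

theorem pen : S_PEN := by
  intro n N lam hN h1 h2
  have hl : 0 < lam := by linarith
  have hκ : 0 < (N + 1) / lam - N := by
    rw [sub_pos, lt_div_iff₀ hl]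
    have h3 : N * lam < N * (1 + 1 / N) := mul_lt_mul_of_pos_left h2 hN
    have h4 : N * (1 + 1 / N) = N + 1 := by field_simp
    linarith
  obtain ⟨m₀, hm₀⟩ := exists_nat_gt (n * N / ((N + 1) / lam - N))
  have hm₁ : n * N < m₀ * ((N + 1) / lam - N) := by
    rwa [div_lt_iff₀ hκ] at hm₀
  have hC : 0 ≤ (lam - 1) * (n * N) * lam ^ m₀ :=
    mul_nonneg (mul_nonneg (by linarith) (mul_nonneg (Nat.cast_nonneg _) hN.le))
      (pow_nonneg hl.le _)
  refine ⟨(lam - 1) * (n * N) * lam ^ m₀, hC, ?_⟩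
  intro D A hA
  rw [trace_fnum_lind]
  have hA1 : ∑ k, (A k k).re = 1 := by
    have := congrArg Complex.re hA.2
    rwa [Matrix.trace, Complex.re_sum, Complex.one_re] at this
  have hA2 : ∀ k, 0 ≤ (A k k).re := fun k =>
    (Complex.nonneg_iff.1 (hA.1.diag_nonneg (i := k))).1
  calc ∑ k, (∑ j, wt N D (fun m => lam ^ m) j k) * (A k k).re
      ≤ ∑ k, ((lam - 1) * (n * N) * lam ^ m₀) * (A k k).re := by
        refine Finset.sum_le_sum fun k _ => mul_le_mul_of_nonneg_right ?_ (hA2 k)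
        have h5 : ∑ j, wt N D (fun m => lam ^ m) j k ≤
            ∑ j : Fin n, lam ^ (∑ i, k.1 i) * (lam - 1) *
              (N - (k.1 j : ℝ) * ((N + 1) / lam - N)) :=
          Finset.sum_le_sum fun j _ => wt_le hN h1 D j k
        refine h5.trans ?_
        rw [← Finset.mul_sum, Finset.sum_sub_distrib, ← Finset.sum_mul, Finset.sum_const,
          Finset.card_univ, Fintype.card_fin, nsmul_eq_mul, ← Nat.cast_sum]
        set m := ∑ i, k.1 i with hm
        by_cases h6 : m ≤ m₀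
        · have h7 : lam ^ m ≤ lam ^ m₀ := pow_le_pow_right₀ h1.le h6
          have h8 : (n : ℝ) * N - (m : ℝ) * ((N + 1) / lam - N) ≤ n * N := by
            have : 0 ≤ (m : ℝ) * ((N + 1) / lam - N) := mul_nonneg (Nat.cast_nonneg _) hκ.le
            linarith
          have h9 : 0 ≤ lam ^ m * (lam - 1) := mul_nonneg (pow_nonneg hl.le _) (by linarith)
          have h10 : 0 ≤ (lam - 1) * (n * N) :=
            mul_nonneg (by linarith) (mul_nonneg (Nat.cast_nonneg _) hN.le)
          calc lam ^ m * (lam - 1) * (n * N - (m : ℝ) * ((N + 1) / lam - N))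
              ≤ lam ^ m * (lam - 1) * (n * N) := mul_le_mul_of_nonneg_left h8 h9
            _ = (lam - 1) * (n * N) * lam ^ m := by ring
            _ ≤ (lam - 1) * (n * N) * lam ^ m₀ := mul_le_mul_of_nonneg_left h7 h10
        · have h7 : (m₀ : ℝ) ≤ m := by exact_mod_cast (le_of_lt (not_le.1 h6))
          have h8 : (n : ℝ) * N - (m : ℝ) * ((N + 1) / lam - N) ≤ 0 := by
            have := mul_le_mul_of_nonneg_right h7 hκ.le
            linarith
          have h9 : 0 ≤ lam ^ m * (lam - 1) := mul_nonneg (pow_nonneg hl.le _) (by linarith)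
          exact (mul_nonpos_of_nonneg_of_nonpos h9 h8).trans hC
    _ = (lam - 1) * (n * N) * lam ^ m₀ := by
        rw [← Finset.mul_sum, hA1, mul_one]

end

end Vale.Agent.P369.FD.H168

/-- package PEN -/
theorem Vale.Agent.P369.FD.thm_PEN : Vale.Agent.P369.FD.S_PEN := Vale.Agent.P369.FD.H168.pen
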